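import Mathlib
import Crest.Prelude.Def_ModularData

/-!
# S0112 (row 84), package A1–A4: the calculus toolkit

Everything is stated for `D : Crest.OpAlg.LineCalculus H` and the Prelude's own
`D.apply`, `D.wave`, `D.SupportedIn`.
-/

set_option autoImplicit false

open Filter Topology
open scoped BoundedContinuousFunction ComplexConjugate

namespace Crest.Agent.Helper68.S0112

open Crest.OpAlg Crest.OpAlg.LineCalculus

variable {H : Type*} [NormedAddCommGroup H] [InnerProductSpace ℂ H] [CompleteSpace H]

/-! ## A1. Norm bound, wave group -/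

theorem norm_apply_le (D : LineCalculus H) (f : ℝ →ᵇ ℂ) : ‖D.apply f‖ ≤ ‖f‖ :=
  NonUnitalStarAlgHom.norm_apply_le D.apply f

theorem norm_apply_apply_le (D : LineCalculus H) (f : ℝ →ᵇ ℂ) (x : H) :
    ‖D.apply f x‖ ≤ ‖f‖ * ‖x‖ :=
  ((D.apply f).le_opNorm x).trans
    (mul_le_mul_of_nonneg_right (norm_apply_le D f) (norm_nonneg x))

theorem apply_mul_apply (D : LineCalculus H) (f g : ℝ →ᵇ ℂ) (x : H) :
    D.apply (f * g) x = D.apply f (D.apply g x) := by
  rw [map_mul]; rfl

theorem apply_comm (D : LineCalculus H) (f g : ℝ →ᵇ ℂ) :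
    D.apply f * D.apply g = D.apply g * D.apply f := by
  rw [← map_mul, ← map_mul, mul_comm]

theorem apply_apply_comm (D : LineCalculus H) (f g : ℝ →ᵇ ℂ) (x : H) :
    D.apply f (D.apply g x) = D.apply g (D.apply f x) := by
  rw [← apply_mul_apply, ← apply_mul_apply, mul_comm]

theorem adjoint_apply (D : LineCalculus H) (f : ℝ →ᵇ ℂ) :
    ContinuousLinearMap.adjoint (D.apply f) = D.apply (star f) := by
  rw [← ContinuousLinearMap.star_eq_adjoint, map_star]

theorem star_apply (D : LineCalculus H) (f : ℝ →ᵇ ℂ) :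
    star (D.apply f) = D.apply (star f) := (map_star D.apply f).symm

theorem inner_apply_left (D : LineCalculus H) (f : ℝ →ᵇ ℂ) (x y : H) :
    inner ℂ (D.apply f x) y = inner ℂ x (D.apply (star f) y) := by
  rw [← adjoint_apply, ContinuousLinearMap.adjoint_inner_right]

theorem inner_apply_right (D : LineCalculus H) (f : ℝ →ᵇ ℂ) (x y : H) :
    inner ℂ x (D.apply f y) = inner ℂ (D.apply (star f) x) y := by
  rw [← adjoint_apply, ContinuousLinearMap.adjoint_inner_left]

@[simp] theorem character_apply (t u : ℝ) :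
    character t u = Complex.exp (Complex.I * ((t * u : ℝ) : ℂ)) := rfl

theorem character_zero : character 0 = 1 := by
  ext u; simp

theorem character_add (s t : ℝ) : character (s + t) = character s * character t := by
  ext u
  simp only [character_apply, BoundedContinuousFunction.mul_apply, ← Complex.exp_add]
  congr 1; push_cast; ring

theorem star_character (t : ℝ) : star (character t) = character (-t) := by
  ext u
  simp only [BoundedContinuousFunction.star_apply, character_apply, RCLike.star_def,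
    ← Complex.exp_conj]
  congr 1
  simp [Complex.conj_ofReal]

theorem norm_character_apply (t u : ℝ) : ‖character t u‖ = 1 := by
  rw [character_apply, Complex.norm_exp]; simp

theorem norm_character_le (t : ℝ) : ‖character t‖ ≤ 1 :=
  (BoundedContinuousFunction.norm_le zero_le_one).2 fun u => (norm_character_apply t u).le

theorem wave_eq (D : LineCalculus H) (t : ℝ) : D.wave t = D.apply (character t) := rfl

theorem wave_zero (D : LineCalculus H) : D.wave 0 = 1 := by
  rw [wave_eq, character_zero, map_one]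

theorem wave_add (D : LineCalculus H) (s t : ℝ) : D.wave (s + t) = D.wave s * D.wave t := by
  rw [wave_eq, character_add, map_mul]; rfl

theorem wave_add_apply (D : LineCalculus H) (s t : ℝ) (x : H) :
    D.wave (s + t) x = D.wave s (D.wave t x) := by
  rw [wave_add]; rfl

theorem wave_neg_mul (D : LineCalculus H) (t : ℝ) : D.wave (-t) * D.wave t = 1 := by
  rw [← wave_add, neg_add_cancel, wave_zero]

theorem wave_mul_neg (D : LineCalculus H) (t : ℝ) : D.wave t * D.wave (-t) = 1 := by
  rw [← wave_add, add_neg_cancel, wave_zero]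

theorem wave_neg_wave (D : LineCalculus H) (t : ℝ) (x : H) : D.wave (-t) (D.wave t x) = x := by
  rw [← wave_add_apply, neg_add_cancel, wave_zero]; rfl

theorem wave_wave_neg (D : LineCalculus H) (t : ℝ) (x : H) : D.wave t (D.wave (-t) x) = x := by
  rw [← wave_add_apply, add_neg_cancel, wave_zero]; rfl

theorem wave_comm (D : LineCalculus H) (s t : ℝ) : D.wave s * D.wave t = D.wave t * D.wave s :=
  apply_comm D _ _

theorem adjoint_wave (D : LineCalculus H) (t : ℝ) :
    ContinuousLinearMap.adjoint (D.wave t) = D.wave (-t) := by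
  rw [wave_eq, adjoint_apply, star_character]; rfl

theorem star_wave (D : LineCalculus H) (t : ℝ) : star (D.wave t) = D.wave (-t) := by
  rw [ContinuousLinearMap.star_eq_adjoint, adjoint_wave]

theorem inner_wave_left (D : LineCalculus H) (t : ℝ) (x y : H) :
    inner ℂ (D.wave t x) y = inner ℂ x (D.wave (-t) y) := by
  rw [← adjoint_wave, ContinuousLinearMap.adjoint_inner_right]

theorem inner_wave_right (D : LineCalculus H) (t : ℝ) (x y : H) :
    inner ℂ x (D.wave t y) = inner ℂ (D.wave (-t) x) y := by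
  rw [← adjoint_wave, ContinuousLinearMap.adjoint_inner_left]

theorem inner_wave_wave (D : LineCalculus H) (t : ℝ) (x y : H) :
    inner ℂ (D.wave t x) (D.wave t y) = inner ℂ x y := by
  rw [inner_wave_left, wave_neg_wave]

theorem norm_wave_apply (D : LineCalculus H) (t : ℝ) (x : H) : ‖D.wave t x‖ = ‖x‖ := by
  have h := inner_wave_wave D t x x
  rw [inner_self_eq_norm_sq_to_K, inner_self_eq_norm_sq_to_K] at h
  have h2 : ‖D.wave t x‖ ^ 2 = ‖x‖ ^ 2 := by exact_mod_cast h
  exact (sq_eq_sq₀ (norm_nonneg _) (norm_nonneg _)).1 h2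

theorem norm_wave_le (D : LineCalculus H) (t : ℝ) : ‖D.wave t‖ ≤ 1 :=
  ContinuousLinearMap.opNorm_le_bound _ zero_le_one fun x => by
    rw [norm_wave_apply, one_mul]

theorem wave_apply_comm (D : LineCalculus H) (t : ℝ) (f : ℝ →ᵇ ℂ) (x : H) :
    D.wave t (D.apply f x) = D.apply f (D.wave t x) :=
  apply_apply_comm D _ _ x

theorem wave_mul_apply (D : LineCalculus H) (t : ℝ) (f : ℝ →ᵇ ℂ) :
    D.wave t * D.apply f = D.apply f * D.wave t :=
  apply_comm D _ _


/-- `D.apply` as a continuous linear map. -/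
noncomputable def applyCLM (D : LineCalculus H) : (ℝ →ᵇ ℂ) →L[ℂ] (H →L[ℂ] H) :=
  LinearMap.mkContinuous D.apply.toAlgHom.toLinearMap 1
    (fun f => by rw [one_mul]; exact norm_apply_le D f)

@[simp] theorem applyCLM_apply (D : LineCalculus H) (f : ℝ →ᵇ ℂ) : applyCLM D f = D.apply f := rfl

theorem continuous_apply (D : LineCalculus H) : Continuous (fun f : ℝ →ᵇ ℂ => D.apply f) :=
  (applyCLM D).continuous

theorem continuous_apply_apply (D : LineCalculus H) (x : H) :
    Continuous (fun f : ℝ →ᵇ ℂ => D.apply f x) :=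
  ((ContinuousLinearMap.apply ℂ H x).continuous).comp (continuous_apply D)

/-! ## A2. Cut-offs -/

/-- the real cut-off: `1` on `[-m, m]`, `0` off `(-(m+1), m+1)`, piecewise linear. -/
noncomputable def cutR (m : ℕ) (u : ℝ) : ℝ := max 0 (min 1 ((m : ℝ) + 1 - |u|))

theorem cutR_nonneg (m : ℕ) (u : ℝ) : 0 ≤ cutR m u := le_max_left _ _

theorem cutR_le_one (m : ℕ) (u : ℝ) : cutR m u ≤ 1 :=
  max_le zero_le_one (min_le_left _ _)

theorem cutR_eq_one {m : ℕ} {u : ℝ} (h : |u| ≤ m) : cutR m u = 1 := by
  unfold cutR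
  rw [min_eq_left (by linarith), max_eq_right zero_le_one]

theorem cutR_eq_zero {m : ℕ} {u : ℝ} (h : (m : ℝ) + 1 ≤ |u|) : cutR m u = 0 := by
  unfold cutR
  rw [min_eq_right (by linarith), max_eq_left (by linarith)]

theorem continuous_cutR (m : ℕ) : Continuous (cutR m) := by
  unfold cutR; fun_prop

/-- the cut-off `χ_m` as a bounded continuous complex function. -/
noncomputable def cut (m : ℕ) : ℝ →ᵇ ℂ :=
  BoundedContinuousFunction.ofNormedAddCommGroup (fun u => ((cutR m u : ℝ) : ℂ))
    (Complex.continuous_ofReal.comp (continuous_cutR m)) 1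
    (fun u => by
      rw [Complex.norm_real, Real.norm_eq_abs, abs_of_nonneg (cutR_nonneg m u)]
      exact cutR_le_one m u)

@[simp] theorem cut_apply (m : ℕ) (u : ℝ) : cut m u = ((cutR m u : ℝ) : ℂ) := rfl

theorem cut_eq_one {m : ℕ} {u : ℝ} (h : |u| ≤ m) : cut m u = 1 := by
  rw [cut_apply, cutR_eq_one h, Complex.ofReal_one]

theorem cut_eq_zero {m : ℕ} {u : ℝ} (h : (m : ℝ) + 1 ≤ |u|) : cut m u = 0 := by
  rw [cut_apply, cutR_eq_zero h, Complex.ofReal_zero]

theorem norm_cut_apply_le (m : ℕ) (u : ℝ) : ‖cut m u‖ ≤ 1 := by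
  rw [cut_apply, Complex.norm_real, Real.norm_eq_abs, abs_of_nonneg (cutR_nonneg m u)]
  exact cutR_le_one m u

theorem norm_cut_le (m : ℕ) : ‖cut m‖ ≤ 1 :=
  (BoundedContinuousFunction.norm_le zero_le_one).2 (norm_cut_apply_le m)

theorem star_cut (m : ℕ) : star (cut m) = cut m := by
  ext u
  simp [Complex.conj_ofReal]

theorem hasCompactSupport_cut (m : ℕ) : HasCompactSupport (cut m : ℝ → ℂ) := by
  refine HasCompactSupport.intro (isCompact_Icc (a := -((m : ℝ) + 1)) (b := (m : ℝ) + 1)) ?_
  intro u hu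
  apply cut_eq_zero
  rw [Set.mem_Icc, not_and_or, not_le, not_le] at hu
  rw [le_abs]
  rcases hu with h | h
  · right; linarith
  · left; linarith

theorem cut_mul_eq {m : ℕ} {f : ℝ →ᵇ ℂ} (hf : ∀ u : ℝ, (m : ℝ) < |u| → f u = 0) :
    cut m * f = f := by
  ext u
  rw [BoundedContinuousFunction.mul_apply]
  by_cases h : |u| ≤ m
  · rw [cut_eq_one h, one_mul]
  · rw [hf u (not_le.1 h), mul_zero]

theorem exists_nat_vanish_of_hasCompactSupport {f : ℝ → ℂ} (hf : HasCompactSupport f) :
    ∃ M : ℕ, ∀ u : ℝ, (M : ℝ) < |u| → f u = 0 := by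
  obtain ⟨r, hr⟩ := hf.isCompact.isBounded.subset_closedBall (0 : ℝ)
  refine ⟨⌈r⌉₊, fun u hu => ?_⟩
  apply image_eq_zero_of_notMem_tsupport
  intro hmem
  have h1 := hr hmem
  rw [Metric.mem_closedBall, Real.dist_eq, sub_zero] at h1
  have h2 := Nat.le_ceil r
  linarith

/-- A2: the cut-offs of `D` converge strongly to the identity. -/
theorem tendsto_apply_cut (D : LineCalculus H) (x : H) :
    Tendsto (fun m : ℕ => D.apply (cut m) x) atTop (𝓝 x) := by
  rw [Metric.tendsto_atTop]
  intro ε hε
  obtain ⟨f, hf, hfx⟩ := D.window x (ε / 2) (half_pos hε)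
  obtain ⟨M, hM⟩ := exists_nat_vanish_of_hasCompactSupport hf
  refine ⟨M, fun m hm => ?_⟩
  have hmf : cut m * f = f :=
    cut_mul_eq (fun u hu => hM u (lt_of_le_of_lt (by exact_mod_cast hm) hu))
  have key : D.apply (cut m) x - x
      = D.apply (cut m) (x - D.apply f x) + (D.apply f x - x) := by
    rw [map_sub, ← apply_mul_apply, hmf]; abel
  rw [dist_eq_norm, key]
  calc ‖D.apply (cut m) (x - D.apply f x) + (D.apply f x - x)‖
      ≤ ‖D.apply (cut m) (x - D.apply f x)‖ + ‖D.apply f x - x‖ := norm_add_le _ _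
    _ ≤ 1 * ‖x - D.apply f x‖ + ‖D.apply f x - x‖ := by
        gcongr
        exact (norm_apply_apply_le D _ _).trans
          (mul_le_mul_of_nonneg_right (norm_cut_le m) (norm_nonneg _))
    _ < ε := by rw [one_mul, norm_sub_rev x]; linarith

/-! ## A3. Strong continuity of the wave group -/

theorem norm_character_sub_character_le (t t' u : ℝ) :
    ‖character t u - character t' u‖ ≤ |t - t'| * |u| := by
  have h : character t u - character t' u
      = character t' u * (Complex.exp (Complex.I * (((t - t') * u : ℝ) : ℂ)) - 1) := by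
    simp only [character_apply]
    rw [mul_sub, mul_one, ← Complex.exp_add]
    congr 2; push_cast; ring
  rw [h, norm_mul, norm_character_apply, one_mul]
  refine (Real.norm_exp_I_mul_ofReal_sub_one_le).trans ?_
  rw [Real.norm_eq_abs, abs_mul]

theorem dist_character_mul_cut_le (m : ℕ) (t t' : ℝ) :
    dist (character t * cut m) (character t' * cut m) ≤ ((m : ℝ) + 1) * |t - t'| := by
  rw [BoundedContinuousFunction.dist_le (by positivity)]
  intro u
  rw [dist_eq_norm, BoundedContinuousFunction.mul_apply, BoundedContinuousFunction.mul_apply,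
    ← sub_mul, norm_mul]
  by_cases h : (m : ℝ) + 1 ≤ |u|
  · rw [cut_eq_zero h, norm_zero, mul_zero]; positivity
  · have h1 := norm_character_sub_character_le t t' u
    have h2 := norm_cut_apply_le m u
    calc ‖character t u - character t' u‖ * ‖cut m u‖
        ≤ (|t - t'| * |u|) * 1 := mul_le_mul h1 h2 (norm_nonneg _) (by positivity)
      _ ≤ ((m : ℝ) + 1) * |t - t'| := by
        nlinarith [abs_nonneg (t - t'), abs_nonneg u, not_le.1 h]

/-- `t ↦ e_t χ_m` is norm-continuous into `C_b`. -/
theorem continuous_character_mul_cut (m : ℕ) :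
    Continuous (fun t : ℝ => character t * cut m) := by
  have h : LipschitzWith (⟨(m : ℝ) + 1, by positivity⟩ : NNReal)
      (fun t : ℝ => character t * cut m) :=
    LipschitzWith.of_dist_le_mul (fun t t' => by
      rw [Real.dist_eq]; exact dist_character_mul_cut_le m t t')
  exact h.continuous

/-- A3: `t ↦ exp(itD) x` is continuous. -/
theorem continuous_wave_apply (D : LineCalculus H) (x : H) :
    Continuous (fun t : ℝ => D.wave t x) := by
  apply continuous_of_uniform_approx_of_continuous
  rw [Metric.uniformity_basis_dist.forall_iff (by aesop)]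
  intro ε hε
  have hx := tendsto_apply_cut D x
  rw [Metric.tendsto_atTop] at hx
  obtain ⟨m, hm⟩ := hx ε hε
  refine ⟨fun t => D.apply (character t * cut m) x,
    (continuous_apply_apply D x).comp (continuous_character_mul_cut m), fun t => ?_⟩
  have h1 : D.apply (character t * cut m) x = D.wave t (D.apply (cut m) x) :=
    apply_mul_apply D _ _ x
  show dist (D.wave t x) (D.apply (character t * cut m) x) < ε
  rw [h1, dist_eq_norm, ← map_sub, norm_wave_apply, ← dist_eq_norm, dist_comm]
  exact hm m le_rfl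

theorem continuous_wave_apply' (D : LineCalculus H) {X : Type*} [TopologicalSpace X]
    {τ : X → ℝ} (hτ : Continuous τ) (x : H) : Continuous (fun p : X => D.wave (τ p) x) :=
  (continuous_wave_apply D x).comp hτ

/-! ## A4. Spectral subspaces -/

section Supported

variable {D : LineCalculus H} {K : Set ℝ} {x y : H}

theorem supportedIn_zero (D : LineCalculus H) (K : Set ℝ) : D.SupportedIn K 0 :=
  fun _ _ => map_zero _

theorem supportedIn_add (hx : D.SupportedIn K x) (hy : D.SupportedIn K y) :
    D.SupportedIn K (x + y) := fun f hf => by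
  rw [map_add, hx f hf, hy f hf, add_zero]

theorem supportedIn_smul (c : ℂ) (hx : D.SupportedIn K x) : D.SupportedIn K (c • x) :=
  fun f hf => by rw [map_smul, hx f hf, smul_zero]

theorem supportedIn_neg (hx : D.SupportedIn K x) : D.SupportedIn K (-x) :=
  fun f hf => by rw [map_neg, hx f hf, neg_zero]

theorem supportedIn_sub (hx : D.SupportedIn K x) (hy : D.SupportedIn K y) :
    D.SupportedIn K (x - y) := fun f hf => by
  rw [map_sub, hx f hf, hy f hf, sub_zero]

theorem supportedIn_sum {ι : Type*} (s : Finset ι) (z : ι → H)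
    (h : ∀ i ∈ s, D.SupportedIn K (z i)) : D.SupportedIn K (∑ i ∈ s, z i) := fun f hf => by
  rw [map_sum]
  exact Finset.sum_eq_zero fun i hi => h i hi f hf

/-- the spectral subspace as a submodule. -/
def supportedSubmodule (D : LineCalculus H) (K : Set ℝ) : Submodule ℂ H where
  carrier := {x | D.SupportedIn K x}
  add_mem' := fun hx hy => supportedIn_add hx hy
  zero_mem' := supportedIn_zero D K
  smul_mem' := fun c _ hx => supportedIn_smul c hx

@[simp] theorem mem_supportedSubmodule : x ∈ supportedSubmodule D K ↔ D.SupportedIn K x :=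
  Iff.rfl

theorem isClosed_supportedIn (D : LineCalculus H) (K : Set ℝ) :
    IsClosed {x : H | D.SupportedIn K x} := by
  have h : {x : H | D.SupportedIn K x}
      = ⋂ f : {f : ℝ →ᵇ ℂ // ∀ u ∈ K, f u = 0}, {x : H | D.apply f.1 x = 0} := by
    ext x
    simp only [Set.mem_ofPred_eq, Set.mem_iInter, Subtype.forall]
    rfl
  rw [h]
  exact isClosed_iInter fun f => isClosed_eq (D.apply f.1).continuous continuous_const

theorem isClosed_supportedSubmodule (D : LineCalculus H) (K : Set ℝ) :
    IsClosed (supportedSubmodule D K : Set H) := isClosed_supportedIn D K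

theorem supportedIn_mono {K' : Set ℝ} (h : K ⊆ K') (hx : D.SupportedIn K x) :
    D.SupportedIn K' x := fun f hf => hx f fun u hu => hf u (h hu)

theorem supportedIn_apply (f : ℝ →ᵇ ℂ) (hx : D.SupportedIn K x) :
    D.SupportedIn K (D.apply f x) := fun g hg => by
  rw [apply_apply_comm, hx g hg, map_zero]

theorem supportedIn_wave (t : ℝ) (hx : D.SupportedIn K x) : D.SupportedIn K (D.wave t x) :=
  supportedIn_apply _ hx

theorem apply_congr_of_supportedIn {f g : ℝ →ᵇ ℂ} (hx : D.SupportedIn K x)
    (h : ∀ u ∈ K, f u = g u) : D.apply f x = D.apply g x := by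
  have h0 := hx (f - g) (fun u hu => by
    rw [BoundedContinuousFunction.sub_apply, h u hu, sub_self])
  rw [map_sub, sub_apply, sub_eq_zero] at h0
  exact h0

theorem apply_eq_self_of_supportedIn {f : ℝ →ᵇ ℂ} (hx : D.SupportedIn K x)
    (h : ∀ u ∈ K, f u = 1) : D.apply f x = x := by
  rw [apply_congr_of_supportedIn (g := 1) hx (fun u hu => by rw [h u hu]; rfl), map_one]; rfl

theorem apply_eq_smul_of_supportedIn {f : ℝ →ᵇ ℂ} (hx : D.SupportedIn K x) (c : ℂ)
    (h : ∀ u ∈ K, f u = c) : D.apply f x = c • x := by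
  rw [apply_congr_of_supportedIn (g := c • 1) hx (fun u hu => by rw [h u hu]; simp), map_smul,
    map_one]; rfl

/-- if `f` vanishes off `K`, then `f(D)` maps into the spectral subspace of `K`. -/
theorem supportedIn_apply_of_vanish {f : ℝ →ᵇ ℂ} (h : ∀ u, u ∉ K → f u = 0) (y : H) :
    D.SupportedIn K (D.apply f y) := fun g hg => by
  have h0 : g * f = 0 := by
    ext u
    rw [BoundedContinuousFunction.mul_apply]
    by_cases hu : u ∈ K
    · rw [hg u hu, zero_mul]; rfl
    · rw [h u hu, mul_zero]; rfl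
  rw [← apply_mul_apply, h0, map_zero]; rfl

/-- the clamp of `f` at level `c > 0`. -/
noncomputable def clamp (f : ℝ →ᵇ ℂ) (c : ℝ) (hc : 0 < c) : ℝ →ᵇ ℂ :=
  BoundedContinuousFunction.ofNormedAddCommGroup
    (fun u => f u * ((c / max c ‖f u‖ : ℝ) : ℂ))
    (f.continuous.mul (Complex.continuous_ofReal.comp
      (continuous_const.div (continuous_const.max f.continuous.norm)
        (fun u => ne_of_gt (lt_max_of_lt_left hc))))) c
    (fun u => by
      have hm : 0 < max c ‖f u‖ := lt_max_of_lt_left hc
      rw [norm_mul, Complex.norm_real, Real.norm_eq_abs, abs_of_nonneg (by positivity),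
        ← mul_div_assoc, div_le_iff₀ hm]
      exact mul_le_mul (le_max_right _ _) le_rfl hc.le hm.le |>.trans_eq (mul_comm _ _))

theorem clamp_apply_of_le (f : ℝ →ᵇ ℂ) (c : ℝ) (hc : 0 < c) {u : ℝ} (hu : ‖f u‖ ≤ c) :
    clamp f c hc u = f u := by
  show f u * ((c / max c ‖f u‖ : ℝ) : ℂ) = f u
  rw [max_eq_left hu, div_self hc.ne', Complex.ofReal_one, mul_one]

theorem norm_clamp_le (f : ℝ →ᵇ ℂ) (c : ℝ) (hc : 0 < c) : ‖clamp f c hc‖ ≤ c :=
  BoundedContinuousFunction.norm_ofNormedAddCommGroup_le _ hc.le _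

/-- on the spectral subspace of `K`, `‖f(D)x‖ ≤ sup_K |f| · ‖x‖`. -/
theorem norm_apply_le_of_supportedIn {f : ℝ →ᵇ ℂ} (hx : D.SupportedIn K x) {c : ℝ}
    (hc : 0 ≤ c) (h : ∀ u ∈ K, ‖f u‖ ≤ c) : ‖D.apply f x‖ ≤ c * ‖x‖ := by
  rcases hc.eq_or_lt with rfl | hc
  · rw [hx f (fun u hu => norm_le_zero_iff.1 (h u hu)), norm_zero, zero_mul]
  · rw [apply_congr_of_supportedIn (g := clamp f c hc) hx
      (fun u hu => (clamp_apply_of_le f c hc (h u hu)).symm)]
    exact (norm_apply_apply_le D _ x).trans
      (mul_le_mul_of_nonneg_right (norm_clamp_le f c hc) (norm_nonneg x))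

/-- limits of supported vectors are supported. -/
theorem supportedIn_of_tendsto {ι : Type*} {l : Filter ι} [l.NeBot] {z : ι → H}
    (hz : ∀ i, D.SupportedIn K (z i)) (hlim : Tendsto z l (𝓝 x)) : D.SupportedIn K x :=
  (isClosed_supportedIn D K).mem_of_tendsto hlim (Eventually.of_forall hz)

end Supported

end Crest.Agent.Helper68.S0112
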